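import Vale.Agent.P192.R2.H360.R.Defs

set_option linter.all false

/-! Machines over a group: row R5a. -/

namespace Vale.Agent.P192.R2.H181

open SimpleGraph Vale.Agent.P192 Vale.Agent.P192.H437 Vale.Agent.P192.H593
  Vale.Agent.P192.R2.H577 Vale.Agent.P192.R2.H360.R

universe u v

section

variable {G : Type v} [Group G] {S : Set G} {X : Type u} [MulAction G X]

/-- a walk moves at most by one at each step -/
theorem dist_getVert_le (hc : (sch S X).Connected) {x y : X} (p : (sch S X).Walk x y) (s k : ℕ) :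
    (sch S X).dist (p.getVert s) (p.getVert (s + k)) ≤ k := by
  induction k with
  | zero => simp
  | succ k ih =>
    have h1 : (sch S X).dist (p.getVert (s + k)) (p.getVert (s + k + 1)) ≤ 1 := by
      by_cases h : s + k < p.length
      · exact (dist_eq_one_iff_adj.2 (p.adj_getVert_succ h)).le
      · push Not at h
        rw [p.getVert_of_length_le h, p.getVert_of_length_le (by omega : p.length ≤ s + k + 1)]
        simp
    have h2 := hc.dist_triangle (u := p.getVert s) (v := p.getVert (s + k))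
      (w := p.getVert (s + k + 1))
    have e : s + (k + 1) = s + k + 1 := rfl
    rw [e]
    omega

/-- points of a geodesic -/
theorem dist_getVert (hc : (sch S X).Connected) {x y : X} (p : (sch S X).Walk x y)
    (hp : p.length = (sch S X).dist x y) {s t : ℕ} (hst : s ≤ t) (ht : t ≤ p.length) :
    (sch S X).dist (p.getVert s) (p.getVert t) = t - s := by
  have h1 := dist_getVert_le hc p 0 s
  have h2 := dist_getVert_le hc p s (t - s)
  have h3 := dist_getVert_le hc p t (p.length - t)
  rw [Walk.getVert_zero, Nat.zero_add] at h1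
  rw [show s + (t - s) = t by omega] at h2
  rw [show t + (p.length - t) = p.length by omega, Walk.getVert_length] at h3
  have h4 := hc.dist_triangle (u := x) (v := p.getVert s) (w := y)
  have h5 := hc.dist_triangle (u := p.getVert s) (v := p.getVert t) (w := y)
  omega

/-- a walk which leaves or enters a set meets its full boundary -/
theorem cross {x y : X} (p : (sch S X).Walk x y) (D : Set X) (s k : ℕ)
    (h : ¬ (p.getVert s ∈ D ↔ p.getVert (s + k) ∈ D)) :
    ∃ r, s ≤ r ∧ r ≤ s + k ∧ p.getVert r ∈ fb S D := by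
  induction k with
  | zero => exact absurd Iff.rfl h
  | succ k ih =>
    by_cases h1 : p.getVert s ∈ D ↔ p.getVert (s + k) ∈ D
    · have h2 : ¬ (p.getVert (s + k) ∈ D ↔ p.getVert (s + k + 1) ∈ D) := by
        intro h3
        exact h (h1.trans h3)
      refine ⟨s + k, by omega, by omega, ?_⟩
      have hlt : s + k < p.length := by
        by_contra hc
        push Not at hc
        rw [p.getVert_of_length_le hc, p.getVert_of_length_le (by omega : p.length ≤ s + k + 1)]
          at h2
        exact h2 Iff.rfl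
      obtain ⟨-, g, hg, he⟩ := p.adj_getVert_succ hlt
      refine ⟨g, hg, ?_⟩
      rw [he]
      by_cases h3 : p.getVert (s + k) ∈ D
      · exact Or.inl ⟨h3, fun h4 => h2 ⟨fun _ => h4, fun _ => h3⟩⟩
      · refine Or.inr ⟨h3, ?_⟩
        by_contra h4
        exact h2 ⟨fun h5 => absurd h5 h3, fun h5 => absurd h5 h4⟩
    · obtain ⟨r, hr1, hr2, hr3⟩ := ih h1
      exact ⟨r, hr1, by omega, hr3⟩

theorem sep_iff {D : Set X} {a b : X} (h : (a ∈ D ∧ b ∉ D) ∨ (a ∉ D ∧ b ∈ D)) :
    ¬ (a ∈ D ↔ b ∈ D) := by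
  rcases h with ⟨h1, h2⟩ | ⟨h1, h2⟩
  · exact fun h => h2 (h.1 h1)
  · exact fun h => h1 (h.2 h2)

theorem iff_sep {D : Set X} {a b : X} (h : ¬ (a ∈ D ↔ b ∈ D)) :
    (a ∈ D ∧ b ∉ D) ∨ (a ∉ D ∧ b ∈ D) := by
  by_cases h1 : a ∈ D
  · by_cases h2 : b ∈ D
    · exact absurd ⟨fun _ => h2, fun _ => h1⟩ h
    · exact Or.inl ⟨h1, h2⟩
  · by_cases h2 : b ∈ D
    · exact Or.inr ⟨h1, h2⟩
    · exact absurd ⟨fun h3 => absurd h3 h1, fun h3 => absurd h3 h2⟩ h

end

theorem r5a : R2.{u, v} → R5a.{u, v} := by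
  intro h2 G _ _ hG S hS K
  obtain ⟨M, hM⟩ := h2 G hG S hS K
  refine ⟨M + 1, ?_⟩
  intro X _ _ x y
  by_contra hcon
  push Not at hcon
  have : Nonempty X := ⟨x⟩
  have hc := sch_connected (X := X) hS
  obtain ⟨p, hp⟩ := hc.exists_walk_length_eq_dist x y
  -- length of the segments
  obtain ⟨L, hL⟩ : ∃ L, L = p.length / (M + 1) := ⟨_, rfl⟩
  have hL1 : (M + 1) * L ≤ p.length := by rw [hL]; exact Nat.mul_div_le _ _
  have hL2 : p.length ≤ (M + 1) * (L + 1) := by
    rw [hL]
    exact (Nat.lt_mul_div_succ _ (Nat.succ_pos M)).le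
  have hend : ∀ i : Fin (M + 1), (i.val + 1) * L ≤ p.length := by
    intro i
    have h1 : i.val + 1 ≤ M + 1 := i.isLt
    exact (Nat.mul_le_mul_right L h1).trans hL1
  have hdist : ∀ i : Fin (M + 1), (sch S X).dist (p.getVert (i.val * L))
      (p.getVert ((i.val + 1) * L)) = L := by
    intro i
    have h1 : (i.val + 1) * L = i.val * L + L := Nat.succ_mul _ _
    rw [dist_getVert hc p hp (by rw [h1]; omega) (hend i), h1]
    omega
  have hex : ∀ i : Fin (M + 1), ∃ D : Set X, (fb S D).encard ≤ K ∧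
      (∀ u ∈ fb S D, ∀ v ∈ fb S D, hop S K u v) ∧
      ((p.getVert (i.val * L) ∈ D ∧ p.getVert ((i.val + 1) * L) ∉ D) ∨
        (p.getVert (i.val * L) ∉ D ∧ p.getVert ((i.val + 1) * L) ∈ D)) ∧
      ∀ v ∈ fb S D, ¬ hop S (2 * K) (p.getVert (i.val * L)) v ∧
        ¬ hop S (2 * K) (p.getVert ((i.val + 1) * L)) v := by
    intro i
    refine hcon _ _ ?_
    rw [hdist i, ← hp]
    exact hL2
  choose D hD1 hD2 hD3 hD4 using hex
  -- crossing times
  have hcr : ∀ i : Fin (M + 1), ∃ r, i.val * L ≤ r ∧ r ≤ (i.val + 1) * L ∧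
      p.getVert r ∈ fb S (D i) := by
    intro i
    have h1 : (i.val + 1) * L = i.val * L + L := Nat.succ_mul _ _
    have h3 := sep_iff (hD3 i)
    rw [h1] at h3 ⊢
    exact cross p (D i) _ _ h3
  choose r hr1 hr2 hr3 using hcr
  have hsep : ∀ i : Fin (M + 1), (x ∈ D i ∧ y ∉ D i) ∨ (x ∉ D i ∧ y ∈ D i) := by
    intro i
    apply iff_sep
    intro hxy
    have h3 := sep_iff (hD3 i)
    by_cases h4 : x ∈ D i ↔ p.getVert (i.val * L) ∈ D i
    · -- crossing after the segment
      have h5 : ¬ (p.getVert ((i.val + 1) * L) ∈ D i ↔ y ∈ D i) := by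
        intro h6
        exact h3 (h4.symm.trans (hxy.trans h6.symm))
      have h6 : ¬ (p.getVert ((i.val + 1) * L) ∈ D i ↔
          p.getVert ((i.val + 1) * L + (p.length - (i.val + 1) * L)) ∈ D i) := by
        rw [show (i.val + 1) * L + (p.length - (i.val + 1) * L) = p.length by
          have := hend i; omega, Walk.getVert_length]
        exact h5
      obtain ⟨t, ht1, ht2, ht3⟩ := cross p (D i) _ _ h6
      have ht4 : t ≤ p.length := by have := hend i; omega
      have h7 := (hop_iff hc).1 (hD2 i _ (hr3 i) _ ht3)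
      rw [dist_getVert hc p hp ((hr2 i).trans ht1) ht4] at h7
      refine (hD4 i _ (hr3 i)).2 ((hop_iff hc).2 ?_)
      rw [SimpleGraph.dist_comm, dist_getVert hc p hp (hr2 i) (hend i)]
      omega
    · -- crossing before the segment
      have h6 : ¬ (p.getVert 0 ∈ D i ↔ p.getVert (0 + i.val * L) ∈ D i) := by
        rw [Walk.getVert_zero, Nat.zero_add]
        exact h4
      obtain ⟨t, ht1, ht2, ht3⟩ := cross p (D i) _ _ h6
      rw [Nat.zero_add] at ht2
      have hr4 : r i ≤ p.length := (hr2 i).trans (hend i)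
      have h7 := (hop_iff hc).1 (hD2 i _ ht3 _ (hr3 i))
      rw [dist_getVert hc p hp (ht2.trans (hr1 i)) hr4] at h7
      refine (hD4 i _ (hr3 i)).1 ((hop_iff hc).2 ?_)
      rw [dist_getVert hc p hp (hr1 i) hr4]
      omega
  have hdis : ∀ i j : Fin (M + 1), i < j → Disjoint (fb S (D i)) (fb S (D j)) := by
    intro i j hij
    rw [Set.disjoint_left]
    intro v hvi hvj
    have hle : (i.val + 1) * L ≤ j.val * L := Nat.mul_le_mul_right L (by exact hij)
    have hrj : r j ≤ p.length := (hr2 j).trans (hend j)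
    have h1 := (hop_iff hc).1 (hD2 i _ (hr3 i) _ hvi)
    have h2 := (hop_iff hc).1 (hD2 j _ hvj _ (hr3 j))
    have h3 := hc.dist_triangle (u := p.getVert (r i)) (v := v) (w := p.getVert (r j))
    have h5 := hr1 j
    have h6 := hr2 i
    rw [dist_getVert hc p hp (by omega) hrj] at h3
    refine (hD4 i _ (hr3 i)).2 ((hop_iff hc).2 ?_)
    rw [SimpleGraph.dist_comm, dist_getVert hc p hp (hr2 i) (hend i)]
    omega
  have := hM X x y (M + 1) D hsep hD1 (by
    intro i j hij
    rcases lt_or_gt_of_ne hij with h | h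
    · exact hdis i j h
    · exact (hdis j i h).symm)
  omega

end Vale.Agent.P192.R2.H181
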